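import Vale.Agent.Lib.P096.Defs

/-! # P096: the Hilbert sum of a sequence of Hilbert spaces, corner embeddings and compressions -/

namespace Vale.Agent.Lib.P096

universe u

open scoped InnerProductSpace

set_option linter.unusedSectionVars false
set_option linter.deprecated false

variable {G : ℕ → Type u} [∀ k, NormedAddCommGroup (G k)] [∀ k, InnerProductSpace ℂ (G k)]
  [∀ k, CompleteSpace (G k)]

/-- the inclusion of the `k`-th summand -/
noncomputable def inc (k : ℕ) : G k →L[ℂ] lp G 2 := lp.singleContinuousLinearMap ℂ G 2 k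

/-- the `k`-th coordinate, as the adjoint of the inclusion -/
noncomputable def ev (k : ℕ) : lp G 2 →L[ℂ] G k := ContinuousLinearMap.adjoint (inc k)

theorem inc_eq_single (k : ℕ) (y : G k) : (inc k y : lp G 2) = lp.single 2 k y := rfl

theorem inc_apply_same (k : ℕ) (y : G k) : (inc k y : lp G 2) k = y := by
  rw [inc_eq_single]; exact lp.single_apply_self 2 k y

theorem inc_apply_ne {j k : ℕ} (h : j ≠ k) (y : G k) : (inc k y : lp G 2) j = 0 := by
  rw [inc_eq_single]; exact lp.single_apply_ne 2 k y h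

theorem inner_inc_left (k : ℕ) (y : G k) (x : lp G 2) : ⟪inc k y, x⟫_ℂ = ⟪y, x k⟫_ℂ := by
  rw [inc_eq_single]; exact lp.inner_single_left k y x

theorem ev_apply (k : ℕ) (x : lp G 2) : ev k x = x k := by
  refine ext_inner_left ℂ fun y => ?_
  rw [ev, ContinuousLinearMap.adjoint_inner_right, inner_inc_left]

theorem norm_inc_apply (k : ℕ) (y : G k) : ‖(inc k y : lp G 2)‖ = ‖y‖ := by
  rw [inc_eq_single]; exact lp.norm_single (by norm_num) k y

theorem norm_inc_le (k : ℕ) : ‖(inc k : G k →L[ℂ] lp G 2)‖ ≤ 1 :=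
  ContinuousLinearMap.opNorm_le_bound _ zero_le_one fun y => by
    rw [norm_inc_apply, one_mul]

theorem norm_ev_le (k : ℕ) : ‖(ev k : lp G 2 →L[ℂ] G k)‖ ≤ 1 := by
  rw [ev, LinearIsometryEquiv.norm_map]; exact norm_inc_le k

/-- Pythagoras for the splitting off of one coordinate -/
theorem norm_sq_split (k : ℕ) (y : G k) (z : lp G 2) (hz : z k = 0) :
    ‖inc k y + z‖ ^ 2 = ‖y‖ ^ 2 + ‖z‖ ^ 2 := by
  have h0 : ⟪inc k y, z⟫_ℂ = 0 := by rw [inner_inc_left, hz, inner_zero_right]
  have := norm_add_sq_eq_norm_sq_add_norm_sq_of_inner_eq_zero (inc k y) z h0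
  rw [norm_inc_apply] at this
  rw [sq, sq, sq]; exact this

/-- an operator of the `k`-th summand, extended by zero -/
noncomputable def emb (k : ℕ) (a : G k →L[ℂ] G k) : lp G 2 →L[ℂ] lp G 2 := inc k ∘L a ∘L ev k

/-- the compression of an operator to the `k`-th summand -/
noncomputable def cmp (k : ℕ) (T : lp G 2 →L[ℂ] lp G 2) : G k →L[ℂ] G k := ev k ∘L T ∘L inc k

theorem emb_apply (k : ℕ) (a : G k →L[ℂ] G k) (x : lp G 2) : emb k a x = inc k (a (x k)) := by
  simp only [emb, ContinuousLinearMap.comp_apply, ev_apply]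

theorem emb_apply_same (k : ℕ) (a : G k →L[ℂ] G k) (x : lp G 2) : (emb k a x) k = a (x k) := by
  rw [emb_apply, inc_apply_same]

theorem emb_apply_ne {j k : ℕ} (h : j ≠ k) (a : G k →L[ℂ] G k) (x : lp G 2) :
    (emb k a x) j = 0 := by
  rw [emb_apply, inc_apply_ne h]

theorem cmp_apply (k : ℕ) (T : lp G 2 →L[ℂ] lp G 2) (y : G k) : cmp k T y = (T (inc k y)) k := by
  simp only [cmp, ContinuousLinearMap.comp_apply, ev_apply]

theorem star_emb (k : ℕ) (a : G k →L[ℂ] G k) : star (emb k a) = emb k (star a) := by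
  rw [ContinuousLinearMap.star_eq_adjoint, ContinuousLinearMap.star_eq_adjoint, emb, emb,
    ContinuousLinearMap.adjoint_comp, ContinuousLinearMap.adjoint_comp, ev,
    ContinuousLinearMap.adjoint_adjoint, ContinuousLinearMap.comp_assoc]

theorem star_cmp (k : ℕ) (T : lp G 2 →L[ℂ] lp G 2) : star (cmp k T) = cmp k (star T) := by
  rw [ContinuousLinearMap.star_eq_adjoint, ContinuousLinearMap.star_eq_adjoint, cmp, cmp,
    ContinuousLinearMap.adjoint_comp, ContinuousLinearMap.adjoint_comp, ev,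
    ContinuousLinearMap.adjoint_adjoint, ContinuousLinearMap.comp_assoc]

theorem cmp_emb (k : ℕ) (a : G k →L[ℂ] G k) : cmp k (emb k a) = a := by
  ext y
  rw [cmp_apply, emb_apply_same, inc_apply_same]

theorem cmp_one (k : ℕ) : cmp k (1 : lp G 2 →L[ℂ] lp G 2) = 1 := by
  ext y
  rw [cmp_apply, ContinuousLinearMap.one_apply, inc_apply_same, ContinuousLinearMap.one_apply]

theorem cmp_sub (k : ℕ) (S T : lp G 2 →L[ℂ] lp G 2) : cmp k (S - T) = cmp k S - cmp k T := by
  ext y
  rw [ContinuousLinearMap.sub_apply, cmp_apply, cmp_apply, cmp_apply,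
    ContinuousLinearMap.sub_apply]
  rfl

theorem emb_mul (k : ℕ) (a b : G k →L[ℂ] G k) : emb k (a * b) = emb k a * emb k b := by
  ext1 x
  rw [ContinuousLinearMap.mul_apply, emb_apply, emb_apply, emb_apply_same,
    ContinuousLinearMap.mul_apply]

theorem norm_apply_le (k : ℕ) (x : lp G 2) : ‖x k‖ ≤ ‖x‖ :=
  lp.norm_apply_le_norm (by norm_num) x k

theorem norm_emb_le (k : ℕ) (a : G k →L[ℂ] G k) : ‖emb k a‖ ≤ ‖a‖ := by
  refine ContinuousLinearMap.opNorm_le_bound _ (norm_nonneg _) fun x => ?_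
  rw [emb_apply, norm_inc_apply]
  exact (a.le_opNorm _).trans (mul_le_mul_of_nonneg_left (norm_apply_le k x) (norm_nonneg _))

theorem norm_cmp_le (k : ℕ) (T : lp G 2 →L[ℂ] lp G 2) : ‖cmp k T‖ ≤ ‖T‖ := by
  refine ContinuousLinearMap.opNorm_le_bound _ (norm_nonneg _) fun y => ?_
  rw [cmp_apply]
  refine (norm_apply_le k _).trans ?_
  have h2 := T.le_opNorm (inc k y)
  rwa [norm_inc_apply] at h2

/-- `cmp k (S * emb k a * T) = cmp k S * a * cmp k T` -/
theorem cmp_mul_emb_mul (k : ℕ) (S T : lp G 2 →L[ℂ] lp G 2) (a : G k →L[ℂ] G k) :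
    cmp k (S * emb k a * T) = cmp k S * a * cmp k T := by
  ext y
  simp only [cmp_apply, ContinuousLinearMap.mul_apply, emb_apply]

end Vale.Agent.Lib.P096
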