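import Vale.Agent.Lib.P096.Defs

/-! # P096: commuting projections at distance less than one are equal -/

namespace Vale.Agent.Lib.P096

universe u

variable {H : Type u} [NormedAddCommGroup H] [InnerProductSpace ℂ H] [CompleteSpace H]

/-- Plan: `d = p - q` is selfadjoint and `d ^ 3 = d` (expand, using `p q = q p`, `p^2 = p`,
`q^2 = q`).  `‖d‖^2 = ‖d * d‖` (C-star identity, `IsSelfAdjoint.norm_mul_self` or
`CStarRing.norm_star_mul_self`), and `e = d * d` is selfadjoint with `e * e = e`, so `‖e‖ = ‖e‖^2`,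
so `‖e‖ = 0` or `‖e‖ = 1`; the latter contradicts `‖d‖ < 1`. -/
theorem proj_eq_of_commute {p q : H →L[ℂ] H} (hp : p * p = p) (hps : star p = p)
    (hq : q * q = q) (hqs : star q = q) (hc : p * q = q * p) (hd : ‖p - q‖ < 1) : p = q := by
  set d : H →L[ℂ] H := p - q with hdef
  have hds : star d = d := by rw [hdef, star_sub, hps, hqs]
  have hdd : d * d = p + q - 2 • (p * q) := by
    rw [hdef, sub_mul, mul_sub, mul_sub, hp, hq, ← hc]
    abel
  have hpqq : p * q * q = p * q := by rw [mul_assoc, hq]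
  have hpqp : p * q * p = p * q := by rw [hc, mul_assoc, hp]
  have hppq : p * (p * q) = p * q := by rw [← mul_assoc, hp]
  have hqpq : q * (p * q) = p * q := by rw [hc, ← mul_assoc, hq]
  have hpqpq : p * q * (p * q) = p * q := by rw [mul_assoc, hqpq, hppq]
  have hee : (d * d) * (d * d) = d * d := by
    rw [hdd]
    simp only [sub_mul, mul_sub, add_mul, mul_add, smul_mul_assoc, mul_smul_comm, hp, hq, hpqq,
      hpqp, hppq, hqpq, hpqpq, ← hc]
    module
  have hes : star (d * d) = d * d := by rw [star_mul, hds]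
  have h1 : ‖d * d‖ = ‖d‖ * ‖d‖ := by
    have := CStarRing.norm_star_mul_self (x := d)
    rwa [hds] at this
  have h2 : ‖d * d‖ = ‖d * d‖ * ‖d * d‖ := by
    have := CStarRing.norm_star_mul_self (x := d * d)
    rw [hes, hee] at this
    exact this
  have h0 : 0 ≤ ‖d‖ := norm_nonneg d
  have h3 : ‖d‖ = 0 := by
    by_contra hne
    have hpos : 0 < ‖d‖ := lt_of_le_of_ne h0 (Ne.symm hne)
    rw [h1] at h2
    have h4 : ‖d‖ * ‖d‖ = 1 := by
      have hpp : 0 < ‖d‖ * ‖d‖ := mul_pos hpos hpos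
      have : (‖d‖ * ‖d‖) * 1 = (‖d‖ * ‖d‖) * (‖d‖ * ‖d‖) := by rw [mul_one]; exact h2
      exact (mul_left_cancel₀ hpp.ne' this).symm
    nlinarith
  have : d = 0 := norm_eq_zero.mp h3
  exact sub_eq_zero.mp this

end Vale.Agent.Lib.P096
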