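import Vale.Agent.Lib.P096.DS
import Vale.Agent.Lib.P096.Proj

/-! # P096: a unitary close to one that conjugates direct sums restricts to the summands -/

namespace Vale.Agent.Lib.P096

universe u

open scoped InnerProductSpace

variable {G : ℕ → Type u} [∀ k, NormedAddCommGroup (G k)] [∀ k, InnerProductSpace ℂ (G k)]
  [∀ k, CompleteSpace (G k)]

/-- Plan: `p = emb k 1` lies in `ds A`, so `q = U * p * star U` lies in `ds B`, hence commutes with
`p` (`dsSet_commute_emb` with `b = 1`).  `p`, `q` are selfadjoint idempotents and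
`‖q - p‖ = ‖(U * p - p * U) * star U‖ ≤ ‖(U - 1) * p - p * (U - 1)‖ ≤ 2 ‖U - 1‖ < 1`
(`‖p‖ ≤ 1` by `norm_emb_le`, `‖star U‖ ≤ 1`).  `proj_eq_of_commute` gives `q = p`; multiply by `U`. -/
theorem commute_proj {A B : ∀ k, VonNeumannAlgebra (G k)} {U : lp G 2 →L[ℂ] lp G 2} {ε : ℝ}
    (hU : Implements U (ds A) (ds B) ε) (hε : ε ≤ 1 / 2) (k : ℕ) :
    U * emb k 1 = emb k 1 * U := by
  obtain ⟨hUu, himg, hnorm⟩ := hU
  have hUs : star U * U = 1 := (Unitary.mem_iff.mp hUu).1
  have hUs' : U * star U = 1 := (Unitary.mem_iff.mp hUu).2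
  have hpA : (emb k 1 : lp G 2 →L[ℂ] lp G 2) ∈ ds A :=
    (mem_ds A _).2 (emb_mem_dsSet A k (one_mem _))
  have hq : U * emb k 1 * star U ∈ (ds B : Set (lp G 2 →L[ℂ] lp G 2)) := by
    rw [← himg]; exact ⟨emb k 1, hpA, rfl⟩
  have hqB : U * emb k 1 * star U ∈ dsSet B := hq
  have hcomm : (U * emb k 1 * star U) * emb k 1 = emb k 1 * (U * emb k 1 * star U) :=
    dsSet_commute_emb hqB k (b := 1) (Set.one_mem_centralizer)
  have hpp : (emb k 1 : lp G 2 →L[ℂ] lp G 2) * emb k 1 = emb k 1 := by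
    rw [← emb_mul, one_mul]
  have hps : star (emb k 1 : lp G 2 →L[ℂ] lp G 2) = emb k 1 := by
    rw [star_emb, star_one]
  generalize (emb k 1 : lp G 2 →L[ℂ] lp G 2) = p at *
  have hp1 : ‖p‖ ≤ 1 := by
    have h := CStarRing.norm_star_mul_self (x := p)
    rw [hps, hpp] at h
    nlinarith [norm_nonneg p]
  have hU1 : ‖U‖ ≤ 1 := by
    have h := CStarRing.norm_star_mul_self (x := U)
    rw [hUs] at h
    have h1 : ‖(1 : lp G 2 →L[ℂ] lp G 2)‖ ≤ 1 := ContinuousLinearMap.norm_id_le
    nlinarith [norm_nonneg U]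
  have hU1' : ‖star U‖ ≤ 1 := by
    have h := CStarRing.norm_star_mul_self (x := star U)
    rw [star_star, hUs'] at h
    have h1 : ‖(1 : lp G 2 →L[ℂ] lp G 2)‖ ≤ 1 := ContinuousLinearMap.norm_id_le
    nlinarith [norm_nonneg (star U)]
  have hqq : (U * p * star U) * (U * p * star U) = U * p * star U := by
    calc (U * p * star U) * (U * p * star U) = U * p * (star U * U) * p * star U := by
          simp only [mul_assoc]
      _ = U * (p * p) * star U := by rw [hUs, mul_one, mul_assoc U p p]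
      _ = U * p * star U := by rw [hpp]
  have hqs : star (U * p * star U) = U * p * star U := by
    simp only [star_mul, star_star, hps, mul_assoc]
  have hd : ‖U * p * star U - p‖ < 1 := by
    have e1 : U * p * star U - p = ((U - 1) * p - p * (U - 1)) * star U := by
      have : p = p * (U * star U) := by rw [hUs', mul_one]
      calc U * p * star U - p = U * p * star U - p * (U * star U) := by rw [← this]
        _ = ((U - 1) * p - p * (U - 1)) * star U := by noncomm_ring
    rw [e1]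
    have h1 : ‖(U - 1) * p‖ ≤ ‖U - 1‖ := by
      calc ‖(U - 1) * p‖ ≤ ‖U - 1‖ * ‖p‖ := norm_mul_le _ _
        _ ≤ ‖U - 1‖ * 1 := by gcongr
        _ = ‖U - 1‖ := mul_one _
    have h2 : ‖p * (U - 1)‖ ≤ ‖U - 1‖ := by
      calc ‖p * (U - 1)‖ ≤ ‖p‖ * ‖U - 1‖ := norm_mul_le _ _
        _ ≤ 1 * ‖U - 1‖ := by gcongr
        _ = ‖U - 1‖ := one_mul _
    calc ‖((U - 1) * p - p * (U - 1)) * star U‖
        ≤ ‖(U - 1) * p - p * (U - 1)‖ * ‖star U‖ := norm_mul_le _ _
      _ ≤ (‖(U - 1) * p‖ + ‖p * (U - 1)‖) * 1 := by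
          gcongr
          exact norm_sub_le _ _
      _ ≤ 2 * ‖U - 1‖ := by linarith
      _ < 1 := by linarith
  have hqp := proj_eq_of_commute hqq hqs hpp hps hcomm hd
  calc U * p = U * p * (star U * U) := by rw [hUs, mul_one]
    _ = (U * p * star U) * U := by simp only [mul_assoc]
    _ = p * U := by rw [hqp]

/-- Plan: `u = cmp k U`.  `star u = cmp k (star U)`.  By `cmp_mul_emb_mul` with `a = 1` and
`commute_proj`: `star u * u = cmp k (star U * emb k 1 * U) = cmp k (star U * U * emb k 1)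
= cmp k (emb k 1) = 1`, likewise `u * star u = 1`.  `‖u - 1‖ = ‖cmp k (U - 1)‖ ≤ ‖U - 1‖`.
For `a ∈ A k`: `emb k a ∈ ds A`, so `U * emb k a * star U ∈ ds B`, and its compression
`u * a * star u` lies in `B k`.  For `b ∈ B k`: `emb k b ∈ ds B = U (ds A) star U`, say
`emb k b = U * S * star U`, `S ∈ ds A`; then `S = star U * emb k b * U`, `cmp k S = star u * b * u ∈ A k`
and `u * (star u * b * u) * star u = b`. -/
theorem corner_implements {A B : ∀ k, VonNeumannAlgebra (G k)} {U : lp G 2 →L[ℂ] lp G 2} {ε : ℝ}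
    (hU : Implements U (ds A) (ds B) ε) (hε : ε ≤ 1 / 2) (k : ℕ) :
    Implements (cmp k U) (A k) (B k) ε := by
  have hc : U * emb k 1 = emb k 1 * U := commute_proj hU hε k
  obtain ⟨hUu, himg, hnorm⟩ := hU
  have h1 : star U * U = 1 := (Unitary.mem_iff.mp hUu).1
  have h2 : U * star U = 1 := (Unitary.mem_iff.mp hUu).2
  have hs : star (cmp k U) = cmp k (star U) := star_cmp k U
  have hsu : cmp k (star U) * cmp k U = 1 := by
    have e : cmp k (star U * emb k 1 * U) = cmp k (star U) * 1 * cmp k U :=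
      cmp_mul_emb_mul k (star U) U 1
    rw [mul_one] at e
    rw [← e, mul_assoc, ← hc, ← mul_assoc, h1, one_mul, cmp_emb]
  have hus : cmp k U * cmp k (star U) = 1 := by
    have e : cmp k (U * emb k 1 * star U) = cmp k U * 1 * cmp k (star U) :=
      cmp_mul_emb_mul k U (star U) 1
    rw [mul_one] at e
    rw [← e, hc, mul_assoc, h2, mul_one, cmp_emb]
  refine ⟨Unitary.mem_iff.mpr ⟨by rw [hs]; exact hsu, by rw [hs]; exact hus⟩, ?_, ?_⟩
  · ext b
    constructor
    · rintro ⟨a, ha, rfl⟩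
      have ha' : emb k a ∈ (ds A : Set (lp G 2 →L[ℂ] lp G 2)) := emb_mem_dsSet A k ha
      have hb : U * emb k a * star U ∈ (ds B : Set (lp G 2 →L[ℂ] lp G 2)) := by
        rw [← himg]
        exact ⟨emb k a, ha', rfl⟩
      have hb' := ((mem_dsSet_iff B _).mp hb k).1
      rw [cmp_mul_emb_mul] at hb'
      show cmp k U * a * star (cmp k U) ∈ B k
      rw [hs]
      exact hb'
    · intro hb
      have hb' : emb k b ∈ (ds B : Set (lp G 2 →L[ℂ] lp G 2)) := emb_mem_dsSet B k hb
      rw [← himg] at hb'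
      obtain ⟨S, hS, hSb⟩ := hb'
      have hSb' : U * S * star U = emb k b := hSb
      have hSeq : S = star U * emb k b * U := by
        rw [← hSb']
        calc S = (star U * U) * S * (star U * U) := by rw [h1, one_mul, mul_one]
          _ = star U * (U * S * star U) * U := by simp only [mul_assoc]
      have hcS := ((mem_dsSet_iff A _).mp hS k).1
      rw [hSeq, cmp_mul_emb_mul] at hcS
      refine ⟨cmp k (star U) * b * cmp k U, hcS, ?_⟩
      show cmp k U * (cmp k (star U) * b * cmp k U) * star (cmp k U) = b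
      rw [hs]
      calc cmp k U * (cmp k (star U) * b * cmp k U) * cmp k (star U)
          = (cmp k U * cmp k (star U)) * b * (cmp k U * cmp k (star U)) := by
            simp only [mul_assoc]
        _ = b := by rw [hus, one_mul, mul_one]
  · have e : cmp k U - 1 = cmp k (U - 1) := by rw [cmp_sub, cmp_one]
    rw [e]
    exact lt_of_le_of_lt (norm_cmp_le k _) hnorm

end Vale.Agent.Lib.P096
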