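import Vale.Agent.Lib.P096.Basic

/-! # P096: the direct sum of a sequence of von Neumann algebras -/

namespace Vale.Agent.Lib.P096

universe u

open scoped InnerProductSpace

variable {G : ℕ → Type u} [∀ k, NormedAddCommGroup (G k)] [∀ k, InnerProductSpace ℂ (G k)]
  [∀ k, CompleteSpace (G k)]

/-- the operators on the Hilbert sum that act in each coordinate by an element of `A k` -/
def dsSet (A : ∀ k, VonNeumannAlgebra (G k)) : Set (lp G 2 →L[ℂ] lp G 2) :=
  {T | ∀ k, ∃ a ∈ A k, ∀ x : lp G 2, (T x) k = a (x k)}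

/-- the coordinate operators are the compressions: if `(T x) k = a (x k)` for all `x` then
`a = cmp k T` (apply it to `x = inc k y`). -/
theorem mem_dsSet_iff (A : ∀ k, VonNeumannAlgebra (G k)) (T : lp G 2 →L[ℂ] lp G 2) :
    T ∈ dsSet A ↔ ∀ k, cmp k T ∈ A k ∧ ∀ x : lp G 2, (T x) k = cmp k T (x k) := by
  constructor
  · intro hT k
    obtain ⟨a, ha, hx⟩ := hT k
    have hc : cmp k T = a := by
      ext y
      rw [cmp_apply, hx, inc_apply_same]
    rw [hc]
    exact ⟨ha, hx⟩
  · intro h k
    exact ⟨cmp k T, (h k).1, (h k).2⟩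

/-- `T (inc k y) = inc k (cmp k T y)` for `T` in the direct sum (`lp.ext`, coordinatewise) -/
theorem dsSet_apply_inc {A : ∀ k, VonNeumannAlgebra (G k)} {T : lp G 2 →L[ℂ] lp G 2}
    (hT : T ∈ dsSet A) (k : ℕ) (y : G k) : T (inc k y) = inc k (cmp k T y) := by
  have h := (mem_dsSet_iff A T).1 hT
  apply lp.ext
  funext j
  by_cases hj : j = k
  · subst hj
    rw [inc_apply_same, cmp_apply]
  · rw [inc_apply_ne hj, (h j).2, inc_apply_ne hj, map_zero]

theorem emb_mem_dsSet (A : ∀ k, VonNeumannAlgebra (G k)) (k : ℕ) {a : G k →L[ℂ] G k}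
    (ha : a ∈ A k) : emb k a ∈ dsSet A := by
  intro j
  by_cases hj : j = k
  · subst hj
    exact ⟨a, ha, fun x => emb_apply_same j a x⟩
  · refine ⟨0, zero_mem _, fun x => ?_⟩
    rw [emb_apply_ne hj]
    simp

/-- every element of the direct sum commutes with `emb k b` for `b` in the commutant of `A k`
(in particular with the coordinate projection `emb k 1`) -/
theorem dsSet_commute_emb {A : ∀ k, VonNeumannAlgebra (G k)} {T : lp G 2 →L[ℂ] lp G 2}
    (hT : T ∈ dsSet A) (k : ℕ) {b : G k →L[ℂ] G k}
    (hb : b ∈ Set.centralizer (A k : Set (G k →L[ℂ] G k))) : T * emb k b = emb k b * T := by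
  have h := (mem_dsSet_iff A T).1 hT
  ext1 x
  rw [ContinuousLinearMap.mul_apply, ContinuousLinearMap.mul_apply, emb_apply, emb_apply,
    dsSet_apply_inc hT, (h k).2]
  congr 1
  have h2 := hb (cmp k T) (h k).1
  have h3 := congrArg (fun S : G k →L[ℂ] G k => S (x k)) h2
  simpa [ContinuousLinearMap.mul_apply] using h3

/-- Plan: with `a = cmp k T` show `(star T x) k = star a (x k)` by `ext_inner_left ℂ`:
`⟪y, (star T x) k⟫ = ⟪inc k y, star T x⟫ = ⟪T (inc k y), x⟫ = ⟪inc k (a y), x⟫ = ⟪a y, x k⟫`. -/
theorem star_mem_dsSet {A : ∀ k, VonNeumannAlgebra (G k)} {T : lp G 2 →L[ℂ] lp G 2}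
    (hT : T ∈ dsSet A) : star T ∈ dsSet A := by
  have h := (mem_dsSet_iff A T).1 hT
  intro k
  refine ⟨star (cmp k T), star_mem (h k).1, fun x => ?_⟩
  apply ext_inner_left ℂ
  intro y
  rw [← inner_inc_left, ContinuousLinearMap.star_eq_adjoint, ContinuousLinearMap.star_eq_adjoint,
    ContinuousLinearMap.adjoint_inner_right, ContinuousLinearMap.adjoint_inner_right,
    dsSet_apply_inc hT, inner_inc_left]

/-- Plan: `⊇` is `Set.subset_centralizer_centralizer`.  `⊆`: let `T` be in the double centralizer.
`emb k b` lies in the centralizer of `dsSet A` for every `b` in the centralizer of `A k`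
(`dsSet_commute_emb`), so `T` commutes with it.  With `b = 1`:
`(T x) k = (emb k 1 (T x)) k = (T (emb k 1 x)) k = (T (inc k (x k))) k = cmp k T (x k)`.
With general `b`: `cmp k T * b = cmp k (T * emb k b) = cmp k (emb k b * T) = b * cmp k T`, so
`cmp k T` is in the double centralizer of `A k`, which is `A k`
(`VonNeumannAlgebra.centralizer_centralizer`). -/
theorem centralizer_centralizer_dsSet (A : ∀ k, VonNeumannAlgebra (G k)) :
    Set.centralizer (Set.centralizer (dsSet A)) = dsSet A := by
  apply Set.Subset.antisymm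
  · intro T hT
    have hcomm : ∀ (k : ℕ) (b : G k →L[ℂ] G k),
        b ∈ Set.centralizer (A k : Set (G k →L[ℂ] G k)) → emb k b * T = T * emb k b := by
      intro k b hb
      apply hT
      intro S hS
      exact dsSet_commute_emb hS k hb
    rw [mem_dsSet_iff]
    intro k
    constructor
    · have hcc : cmp k T ∈ Set.centralizer (Set.centralizer (A k : Set (G k →L[ℂ] G k))) := by
        intro b hb
        have h1 := hcomm k b hb
        ext1 y
        have h2 := congrArg (fun S : lp G 2 →L[ℂ] lp G 2 => (S (inc k y)) k) h1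
        simp only [ContinuousLinearMap.mul_apply, emb_apply_same, emb_apply, inc_apply_same] at h2
        rw [ContinuousLinearMap.mul_apply, ContinuousLinearMap.mul_apply, cmp_apply, cmp_apply]
        exact h2
      rw [(A k).centralizer_centralizer] at hcc
      exact hcc
    · intro x
      have h1 := hcomm k 1 (Set.one_mem_centralizer)
      have h2 := congrArg (fun S : lp G 2 →L[ℂ] lp G 2 => (S x) k) h1
      simp only [ContinuousLinearMap.mul_apply, emb_apply, inc_apply_same,
        ContinuousLinearMap.one_apply] at h2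
      rw [cmp_apply]
      exact h2
  · exact Set.subset_centralizer_centralizer

/-- the direct sum of the von Neumann algebras `A k`, acting on the Hilbert sum -/
noncomputable def ds (A : ∀ k, VonNeumannAlgebra (G k)) : VonNeumannAlgebra (lp G 2) where
  carrier := dsSet A
  mul_mem' := by
    intro S T hS hT k
    obtain ⟨a, ha, hax⟩ := hS k
    obtain ⟨b, hb, hbx⟩ := hT k
    refine ⟨a * b, mul_mem ha hb, fun x => ?_⟩
    rw [ContinuousLinearMap.mul_apply, ContinuousLinearMap.mul_apply, hax, hbx]
  one_mem' := by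
    intro k
    exact ⟨1, one_mem _, fun x => rfl⟩
  add_mem' := by
    intro S T hS hT k
    obtain ⟨a, ha, hax⟩ := hS k
    obtain ⟨b, hb, hbx⟩ := hT k
    refine ⟨a + b, add_mem ha hb, fun x => ?_⟩
    rw [ContinuousLinearMap.add_apply, ContinuousLinearMap.add_apply, ← hax, ← hbx]
    rfl
  zero_mem' := by
    intro k
    exact ⟨0, zero_mem _, fun x => rfl⟩
  algebraMap_mem' := by
    intro r k
    refine ⟨algebraMap ℂ _ r, (A k).algebraMap_mem' r, fun x => ?_⟩
    simp [Algebra.algebraMap_eq_smul_one]
  star_mem' := fun h => star_mem_dsSet h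
  centralizer_centralizer' := centralizer_centralizer_dsSet A

theorem mem_ds (A : ∀ k, VonNeumannAlgebra (G k)) (T : lp G 2 →L[ℂ] lp G 2) :
    T ∈ ds A ↔ T ∈ dsSet A := Iff.rfl

end Vale.Agent.Lib.P096
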