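import Mathlib

/-! # P096 (Kadison-Kastler): definitions -/

namespace Vale.Agent.Lib.P096

universe u

variable {H : Type u} [NormedAddCommGroup H] [InnerProductSpace ℂ H] [CompleteSpace H]

/-- the closed operator-norm unit ball of a von Neumann algebra -/
def unitBall (M : VonNeumannAlgebra H) : Set (H →L[ℂ] H) := {x | x ∈ M ∧ ‖x‖ ≤ 1}

/-- the Kadison-Kastler distance: the Hausdorff distance of the unit balls in operator norm -/
noncomputable def kkDist (M N : VonNeumannAlgebra H) : ℝ :=
  Metric.hausdorffDist (unitBall M) (unitBall N)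

/-- `u` is a unitary operator with `u M u* = N` and `‖u - 1‖ < ε` -/
def Implements (u : H →L[ℂ] H) (M N : VonNeumannAlgebra H) (ε : ℝ) : Prop :=
  u ∈ unitary (H →L[ℂ] H) ∧
    (fun x => u * x * star u) '' (M : Set (H →L[ℂ] H)) = (N : Set (H →L[ℂ] H)) ∧ ‖u - 1‖ < ε

end Vale.Agent.Lib.P096
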