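import Vale.Agent.Lib.P096.DS

/-! # P096: changing one summand changes the direct sum by at most the distance of the summands -/

namespace Vale.Agent.Lib.P096

universe u

open scoped InnerProductSpace

variable {G : ℕ → Type u} [∀ k, NormedAddCommGroup (G k)] [∀ k, InnerProductSpace ℂ (G k)]
  [∀ k, CompleteSpace (G k)]

section general

variable {H : Type u} [NormedAddCommGroup H] [InnerProductSpace ℂ H] [CompleteSpace H]

theorem unitBall_nonempty (M : VonNeumannAlgebra H) : (unitBall M).Nonempty :=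
  ⟨0, zero_mem M, by simp⟩

theorem unitBall_bounded (M : VonNeumannAlgebra H) : Bornology.IsBounded (unitBall M) := by
  refine (Metric.isBounded_closedBall (x := (0 : H →L[ℂ] H)) (r := 1)).subset ?_
  intro x hx
  rw [Metric.mem_closedBall, dist_zero_right]
  exact hx.2

/-- `Metric.exists_dist_lt_of_hausdorffDist_lt` with
`Metric.hausdorffEdist_ne_top_of_nonempty_of_bounded` -/
theorem exists_of_kkDist_lt {M N : VonNeumannAlgebra H} {r : ℝ} (h : kkDist M N < r)
    {a : H →L[ℂ] H} (ha : a ∈ unitBall M) : ∃ b ∈ unitBall N, ‖a - b‖ < r := by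
  have hfin : Metric.hausdorffEDist (unitBall M) (unitBall N) ≠ ⊤ :=
    Metric.hausdorffEDist_ne_top_of_nonempty_of_bounded (unitBall_nonempty M)
      (unitBall_nonempty N) (unitBall_bounded M) (unitBall_bounded N)
  obtain ⟨b, hb, hab⟩ := Metric.exists_dist_lt_of_hausdorffDist_lt ha h hfin
  exact ⟨b, hb, by rwa [← dist_eq_norm]⟩

theorem kkDist_comm (M N : VonNeumannAlgebra H) : kkDist M N = kkDist N M :=
  Metric.hausdorffDist_comm

end general

/-- Plan: `T' = T + emb k (b - cmp k T)`.  Its coordinates: `(T' x) j = (T x) j` for `j ≠ k`,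
`(T' x) k = b (x k)`; so `T' ∈ ds B`.  `‖T - T'‖ = ‖emb k (b - cmp k T)‖ ≤ ‖b - cmp k T‖`.
`‖T'‖ ≤ 1`: `T' x = inc k (b (x k)) + T (x - inc k (x k))` (`lp.ext`), the second vector has
`k`-th coordinate `0`; `x = inc k (x k) + (x - inc k (x k))`; use `norm_sq_split` twice and
`ContinuousLinearMap.opNorm_le_bound`. -/
theorem exists_near_ds {A B : ∀ k, VonNeumannAlgebra (G k)} (k : ℕ) (hAB : ∀ j, j ≠ k → A j = B j)
    {T : lp G 2 →L[ℂ] lp G 2} (hT : T ∈ unitBall (ds A)) {b : G k →L[ℂ] G k}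
    (hb : b ∈ unitBall (B k)) :
    ∃ T' ∈ unitBall (ds B), ‖T - T'‖ ≤ ‖cmp k T - b‖ := by
  have hTA : T ∈ dsSet A := hT.1
  have hcoord := (mem_dsSet_iff A T).1 hTA
  refine ⟨T + emb k (b - cmp k T), ⟨?_, ?_⟩, ?_⟩
  · -- membership
    rw [mem_ds]
    intro j
    by_cases hj : j = k
    · subst hj
      refine ⟨b, hb.1, fun x => ?_⟩
      rw [add_apply, lp.coeFn_add, Pi.add_apply, emb_apply_same,
        (hcoord j).2 x, sub_apply]
      abel
    · refine ⟨cmp j T, (hAB j hj) ▸ (hcoord j).1, fun x => ?_⟩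
      rw [add_apply, lp.coeFn_add, Pi.add_apply, emb_apply_ne hj,
        (hcoord j).2 x, add_zero]
  · -- the norm bound
    refine ContinuousLinearMap.opNorm_le_bound _ zero_le_one (fun x => ?_)
    rw [one_mul]
    set z : lp G 2 := x - inc k (x k) with hz
    have hzk : z k = 0 := by
      rw [hz, lp.coeFn_sub, Pi.sub_apply, inc_apply_same, sub_self]
    have hx : x = inc k (x k) + z := by rw [hz]; abel
    have hTz : (T z) k = 0 := by rw [(hcoord k).2 z, hzk, map_zero]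
    have hT'x : (T + emb k (b - cmp k T)) x = inc k (b (x k)) + T z := by
      rw [add_apply, emb_apply, sub_apply, map_sub, hz,
        map_sub, dsSet_apply_inc hTA]
      abel
    have h1 : ‖(T + emb k (b - cmp k T)) x‖ ^ 2 = ‖b (x k)‖ ^ 2 + ‖T z‖ ^ 2 := by
      rw [hT'x, norm_sq_split k _ _ hTz]
    have h2 : ‖x‖ ^ 2 = ‖x k‖ ^ 2 + ‖z‖ ^ 2 := by
      conv_lhs => rw [hx]
      exact norm_sq_split k _ _ hzk
    have h3 : ‖b (x k)‖ ≤ ‖x k‖ := by
      have := b.le_opNorm (x k)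
      have h' : ‖b‖ * ‖x k‖ ≤ 1 * ‖x k‖ := mul_le_mul_of_nonneg_right hb.2 (norm_nonneg _)
      linarith
    have h4 : ‖T z‖ ≤ ‖z‖ := by
      have := T.le_opNorm z
      have h' : ‖T‖ * ‖z‖ ≤ 1 * ‖z‖ := mul_le_mul_of_nonneg_right hT.2 (norm_nonneg _)
      linarith
    have h5 : ‖b (x k)‖ ^ 2 ≤ ‖x k‖ ^ 2 := pow_le_pow_left₀ (norm_nonneg _) h3 2
    have h6 : ‖T z‖ ^ 2 ≤ ‖z‖ ^ 2 := pow_le_pow_left₀ (norm_nonneg _) h4 2
    have h7 : ‖(T + emb k (b - cmp k T)) x‖ ^ 2 ≤ ‖x‖ ^ 2 := by rw [h1, h2]; linarith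
    exact (pow_le_pow_iff_left₀ (norm_nonneg _) (norm_nonneg _) two_ne_zero).1 h7
  · -- the distance
    have e : T - (T + emb k (b - cmp k T)) = -emb k (b - cmp k T) := by abel
    rw [e, norm_neg, norm_sub_rev (cmp k T) b]
    exact norm_emb_le k _

/-- `Metric.hausdorffDist_le_of_mem_dist`, `exists_of_kkDist_lt` (for `cmp k T`, which lies in the
unit ball of `A k` by `mem_dsSet_iff` and `norm_cmp_le`), `exists_near_ds`, and the same with
`A` and `B` exchanged. -/
theorem kkDist_ds_le {A B : ∀ k, VonNeumannAlgebra (G k)} (k : ℕ) (hAB : ∀ j, j ≠ k → A j = B j)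
    {r : ℝ} (h : kkDist (A k) (B k) < r) : kkDist (ds A) (ds B) ≤ r := by
  have hr : 0 ≤ r := le_trans Metric.hausdorffDist_nonneg h.le
  have key : ∀ {A B : ∀ k, VonNeumannAlgebra (G k)}, (∀ j, j ≠ k → A j = B j) →
      kkDist (A k) (B k) < r → ∀ T ∈ unitBall (ds A), ∃ T' ∈ unitBall (ds B), dist T T' ≤ r := by
    intro A B hAB h T hT
    have hc : cmp k T ∈ unitBall (A k) :=
      ⟨((mem_dsSet_iff A T).1 hT.1 k).1, le_trans (norm_cmp_le k T) hT.2⟩
    obtain ⟨b, hb, hlt⟩ := exists_of_kkDist_lt h hc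
    obtain ⟨T', hT', hle⟩ := exists_near_ds k hAB hT hb
    exact ⟨T', hT', by rw [dist_eq_norm]; exact le_trans hle hlt.le⟩
  refine Metric.hausdorffDist_le_of_mem_dist hr (key hAB h) ?_
  intro T hT
  obtain ⟨T', hT', hd⟩ := key (fun j hj => (hAB j hj).symm) (by rwa [kkDist_comm]) T hT
  exact ⟨T', hT', hd⟩

end Vale.Agent.Lib.P096
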