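import Vale.Agent.Lib.P096.Dist
import Vale.Agent.Lib.P096.Corner

/-! # P096: the form of the strong Kadison-Kastler conjecture in which `δ` may depend on the
algebra `M` implies the uniform form -/

namespace Vale.Agent.Lib.P096

universe u

/-- the form in which `δ` may depend on `H` and `M` -/
def PointwiseKK : Prop :=
  ∀ (H : Type u) [NormedAddCommGroup H] [InnerProductSpace ℂ H] [CompleteSpace H]
    (M : VonNeumannAlgebra H) (ε : ℝ), 0 < ε → ∃ δ : ℝ, 0 < δ ∧
      ∀ N : VonNeumannAlgebra H, kkDist M N < δ → ∃ u, Implements u M N ε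

/-- the uniform form -/
def UniformKK : Prop :=
  ∀ ε : ℝ, 0 < ε → ∃ δ : ℝ, 0 < δ ∧
    ∀ (H : Type u) [NormedAddCommGroup H] [InnerProductSpace ℂ H] [CompleteSpace H]
      (M N : VonNeumannAlgebra H), kkDist M N < δ → ∃ u, Implements u M N ε

theorem key {G : ℕ → Type u} [∀ k, NormedAddCommGroup (G k)] [∀ k, InnerProductSpace ℂ (G k)]
    [∀ k, CompleteSpace (G k)] (M N : ∀ k, VonNeumannAlgebra (G k)) (hP : PointwiseKK.{u})
    {ε : ℝ} (hε : 0 < ε) (hd : ∀ k : ℕ, kkDist (M k) (N k) < 1 / ((k : ℝ) + 1)) :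
    ∃ k, ∃ u, Implements u (M k) (N k) ε := by
  have hε' : 0 < min ε (1 / 2) := lt_min hε (by norm_num)
  obtain ⟨δ, hδ, h⟩ := hP (lp G 2) (ds M) (min ε (1 / 2)) hε'
  obtain ⟨k, hk⟩ : ∃ k : ℕ, 1 / ((k : ℝ) + 1) < δ := exists_nat_one_div_lt hδ
  have hB : ∀ j, j ≠ k → M j = Function.update M k (N k) j :=
    fun j hj => (Function.update_of_ne hj _ _).symm
  have hBk : Function.update M k (N k) k = N k := Function.update_self _ _ _
  have hdist : kkDist (ds M) (ds (Function.update M k (N k))) ≤ 1 / ((k : ℝ) + 1) :=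
    kkDist_ds_le k hB (by rw [hBk]; exact hd k)
  obtain ⟨U, hU⟩ := h (ds (Function.update M k (N k))) (lt_of_le_of_lt hdist hk)
  have h3 := corner_implements hU (min_le_right _ _) k
  rw [hBk] at h3
  exact ⟨k, cmp k U, h3.1, h3.2.1, lt_of_lt_of_le h3.2.2 (min_le_left _ _)⟩

theorem uniform_of_pointwise (hP : PointwiseKK.{u}) : UniformKK.{u} := by
  by_contra hS
  unfold UniformKK at hS
  push Not at hS
  obtain ⟨ε, hε, hbad⟩ := hS
  choose H i1 i2 i3 M N hd hno using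
    fun k : ℕ => hbad (1 / ((k : ℝ) + 1)) (by positivity)
  obtain ⟨k, u, hu⟩ := @key H i1 i2 i3 M N hP ε hε hd
  exact hno k u hu

theorem pointwise_of_uniform (hS : UniformKK.{u}) : PointwiseKK.{u} := by
  intro H _ _ _ M ε hε
  obtain ⟨δ, hδ, h⟩ := hS ε hε
  exact ⟨δ, hδ, fun N hN => h H M N hN⟩

theorem uniform_iff_pointwise : UniformKK.{u} ↔ PointwiseKK.{u} :=
  ⟨pointwise_of_uniform, uniform_of_pointwise⟩

end Vale.Agent.Lib.P096
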